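import Vale.Agent.P074.Full

namespace Vale.Agent.Results.P074.Full

/-- In every dimension `d ≥ 2` the set of admissible exponents `α ∈ (0, 1]` has greatest element
`1/3`: the supremum is `1/3` and it is attained.  In particular `1/2` is not admissible. -/
theorem result (d : ℕ) (hd : 2 ≤ d) :
    IsGreatest {α : ℝ | α ∈ Set.Ioc 0 1 ∧ Vale.Agent.P074.Admissible d α} (1 / 3) ∧
      ¬ Vale.Agent.P074.Admissible d (1 / 2) :=
  ⟨Vale.Agent.P074.isGreatest_third d hd,
    Vale.Agent.P074.not_admissible d hd _ (by norm_num) (by norm_num)⟩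

end Vale.Agent.Results.P074.Full
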