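import Vale.Agent.P074.Upper

namespace Vale.Agent.Results.P074.Upper

/-- In every dimension `d ≥ 2` no exponent `α ∈ (1/3, 1]` is admissible; in particular
`α = 1/2` is not admissible. -/
theorem result (d : ℕ) (hd : 2 ≤ d) (α : ℝ) (hα : 1 / 3 < α) (hα1 : α ≤ 1) :
    ¬ Vale.Agent.P074.Admissible d α :=
  Vale.Agent.P074.not_admissible d hd α hα hα1

end Vale.Agent.Results.P074.Upper
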